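import Vale.Agent.P369.H395.Lad
import Vale.Agent.P369.H587.DpThm

/-!
P369 (helper395): package CHAIN of the finite-matrix track.
-/

set_option linter.all false

namespace Vale.Agent.P369.H395

open Matrix
open Vale.Agent.P369.H712 (lm)
open Vale.Agent.P369.FD
open scoped BigOperators Matrix Kronecker ComplexOrder

noncomputable section

variable {ι ι' κ ε J : Type} [Fintype ι] [DecidableEq ι] [Fintype ι'] [DecidableEq ι']
  [Fintype κ] [DecidableEq κ] [Fintype ε] [DecidableEq ε] [Fintype J]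

/-- first moment of the output -/
theorem trace_outp_c {s t s' t' : ℝ} {a : J → Matrix ι ι ℂ} {b : J → Matrix ι' ι' ℂ}
    {c : J → Matrix κ κ ℂ} {d : J → Matrix ε ε ℂ} {W : Matrix (κ × ε) (ι × ι') ℂ}
    (h : Split s t s' t' a b c d W) {A : Matrix ι ι ℂ} {B : Matrix ι' ι' ℂ}
    (hA : A.trace = 1) (hB : B.trace = 1) (j : J) :
    (outp W A B * c j).trace = (s : ℂ) * (A * a j).trace + (t : ℂ) * (B * b j).trace := by
  have h1 := Vale.P369.H587.trace_outC_mul W A B (c j)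
  have h2 : Vale.P369.H587.pull W (c j)
      = ((s : ℝ) : ℂ) • (a j ⊗ₖ (1 : Matrix ι' ι' ℂ)) + ((t : ℝ) : ℂ) • ((1 : Matrix ι ι ℂ) ⊗ₖ b j) := by
    rw [Vale.P369.H587.pull, Matrix.mul_assoc, h.hc, ← Matrix.mul_assoc, h.iso, Matrix.one_mul]
  have h3 : (outp W A B * c j).trace = ((A ⊗ₖ B) * Vale.P369.H587.pull W (c j)).trace := h1
  rw [h3, h2, Matrix.mul_add, Matrix.trace_add, Matrix.mul_smul, Matrix.mul_smul,
    Matrix.trace_smul, Matrix.trace_smul, ← Matrix.mul_kronecker_mul, ← Matrix.mul_kronecker_mul,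
    Matrix.trace_kronecker, Matrix.trace_kronecker, Matrix.mul_one, Matrix.mul_one, hA, hB]
  simp only [smul_eq_mul, mul_one, one_mul]

theorem EAc_shift {W : Matrix (κ × ε) (ι × ι') ℂ} (hW : Wᴴ * W = 1) {A : Matrix ι ι ℂ}
    {B : Matrix ι' ι' ℂ} (hA : A.trace = 1) (hB : B.trace = 1) (H : Matrix κ κ ℂ) (m : ℂ) :
    EAc W A B (H - m • (1 : Matrix κ κ ℂ)) = EAc W A B H := by
  rw [EAc, EAc, EA_sub, EA_smul, EA_one hW hB, Matrix.mul_sub, Matrix.trace_sub, Matrix.mul_smul,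
    Matrix.trace_smul, Matrix.mul_one, trace_outp hW, hA, hB, sub_smul]
  simp only [smul_eq_mul, mul_one]
  abel

theorem EBc_shift {W : Matrix (κ × ε) (ι × ι') ℂ} (hW : Wᴴ * W = 1) {A : Matrix ι ι ℂ}
    {B : Matrix ι' ι' ℂ} (hA : A.trace = 1) (hB : B.trace = 1) (H : Matrix κ κ ℂ) (m : ℂ) :
    EBc W A B (H - m • (1 : Matrix κ κ ℂ)) = EBc W A B H := by
  have := EAc_shift (sw_iso hW) hB hA H m
  rwa [EAc_sw, EAc_sw] at this

/-- duality for input `A` -/
theorem side_A (W : Matrix (κ × ε) (ι × ι') ℂ) {A : Matrix ι ι ℂ} {B : Matrix ι' ι' ℂ}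
    (hA : A.PosDef) (htr : A.trace = 1) {N : ℝ} (hN : 0 < N) (a : Matrix ι ι ℂ)
    (H : Matrix κ κ ℂ) (x : ℝ) :
    2 * x * (((Xl N a A)ᴴ * EA W B H).trace.re
          - ((outp W A B * H).trace * star (A * a).trace).re)
        - x ^ 2 * (((ladH (bb N) a A)ᴴ * Xl N a A).trace.re - ‖(A * a).trace‖ ^ 2)
      ≤ dform (Wt N) hA.isHermitian (EAc W A B H) := by
  have h0 : (A * EAc W A B H).trace = 0 := by
    rw [EAc, Matrix.mul_sub, Matrix.trace_sub, ← trace_outp_mul_eq_EA, Matrix.mul_smul,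
      Matrix.mul_one, Matrix.trace_smul, htr, smul_eq_mul, mul_one, sub_self]
  have h1 := dual_le hA htr hN a (EAc W A B H) h0 x
  have h2 : ((Xl N a A)ᴴ * EAc W A B H).trace.re
      = ((Xl N a A)ᴴ * EA W B H).trace.re
        - ((outp W A B * H).trace * star (A * a).trace).re := by
    rw [EAc, Matrix.mul_sub, Matrix.trace_sub, Matrix.mul_smul, Matrix.mul_one,
      Matrix.trace_smul, Complex.sub_re, ← star_trace, trace_Xl, smul_eq_mul]
  rw [h2] at h1
  exact h1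

/-- duality for input `B` -/
theorem side_B (W : Matrix (κ × ε) (ι × ι') ℂ) {A : Matrix ι ι ℂ} {B : Matrix ι' ι' ℂ}
    (hB : B.PosDef) (htr : B.trace = 1) {N : ℝ} (hN : 0 < N) (b : Matrix ι' ι' ℂ)
    (H : Matrix κ κ ℂ) (x : ℝ) :
    2 * x * (((Xl N b B)ᴴ * EB W A H).trace.re
          - ((outp W A B * H).trace * star (B * b).trace).re)
        - x ^ 2 * (((ladH (bb N) b B)ᴴ * Xl N b B).trace.re - ‖(B * b).trace‖ ^ 2)
      ≤ dform (Wt N) hB.isHermitian (EBc W A B H) := by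
  have h := side_A (sw W) (B := A) hB htr hN b H x
  rwa [EA_sw, outp_sw, EAc_sw] at h

theorem Xl_add_one (M e : ℝ) (c A : Matrix κ κ ℂ) :
    Xl M c (A + ((e : ℝ) : ℂ) • (1 : Matrix κ κ ℂ)) = Xl M c A + ((e : ℝ) : ℂ) • c := by
  simp only [Xl, Matrix.mul_add, Matrix.add_mul, Matrix.mul_smul, Matrix.smul_mul, Matrix.mul_one,
    Matrix.one_mul, smul_add, smul_smul]
  have : (((M + 1 : ℝ) : ℂ) * ((e : ℝ) : ℂ)) • c
      = ((M : ℂ) * ((e : ℝ) : ℂ)) • c + ((e : ℝ) : ℂ) • c := by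
    rw [← add_smul]
    congr 1
    push_cast
    ring
  rw [this]
  abel

theorem chain_arith {δ s t e S E1A E1B E2 qA qB xA xB rA rB GA GB Sa Sb Sab X0 cH acH Sg Sgt Q
    ab ec : ℝ}
    (hsum : 2 * ((1 + δ) * s) * xA - 2 * ((1 + δ) * s) * rA
        - (((1 + δ) * s) ^ 2 * GA - ((1 + δ) * s) ^ 2 * Sa)
        + (2 * ((1 + δ) * t) * xB - 2 * ((1 + δ) * t) * rB
          - (((1 + δ) * t) ^ 2 * GB - ((1 + δ) * t) ^ 2 * Sb))
      ≤ (1 + δ) * X0 + (1 + δ) * (e * cH) - (1 + δ) * Sgt - δ * Q)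
    (R1 : s * rA + t * rB = Sg) (R2 : Sg = Sab + 2 * (s * t * ab))
    (R3 : Sab = s ^ 2 * Sa + t ^ 2 * Sb) (hS : S = s * xA + t * xB)
    (m1 : (1 + δ) * ((1 + δ) * s ^ 2 * GA + (1 + δ) * t ^ 2 * GB)
      ≤ (1 + δ) * (s * xA - s * t * ab + qA + E1A + (t * xB - s * t * ab + qB + E1B)))
    (m2 : (1 + δ) * (Sg - Sgt) ≤ (1 + δ) * (ec * Sg))
    (m3 : (1 + δ) * -E2 ≤ (1 + δ) * (S - X0))
    (m4 : (1 + δ) * (e * cH) ≤ (1 + δ) * (e * acH)) :
    δ * Q + (1 + δ) * δ * Sab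
      ≤ (1 + δ) * (qA + qB + E1A + E1B + E2 + e * acH + ec * Sg) := by
  linear_combination hsum + m1 + m2 + m3 + m4 + (1 + δ) * hS + 2 * (1 + δ) * R1
    + (1 + δ) * R2 + (1 + δ) ^ 2 * R3

theorem thm_CHAIN : S_CHAIN := by
  intro ι ι' κ ε J _ _ _ _ _ _ _ _ _ s t s' t' a b c d W hW A B C hA hB hC htA htB
    NA NB M δ e S E1A E1B E2 qA qB hNA hNB hM hM0 hδ he hCe hOI hS h1A h1B h2
  set H : J → Matrix κ κ ℂ := fun j => ladH (bb M) (c j) C with hH
  set g : J → ℂ := fun j => (outp W A B * c j).trace with hg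
  set τ : ℝ := 1 + e * (Fintype.card κ : ℝ) with hτ
  have hcard : (0 : ℝ) ≤ e * (Fintype.card κ : ℝ) := by positivity
  have hτ1 : 1 ≤ τ := by linarith
  have hτ0 : 0 < τ := by linarith
  have hτC : C.trace = (τ : ℂ) := by
    rw [hCe, Matrix.trace_add, trace_outp hW.iso, htA, htB, Matrix.trace_smul, Matrix.trace_one,
      hτ]
    push_cast
    simp
  have hout : outp W A B = C - ((e : ℝ) : ℂ) • (1 : Matrix κ κ ℂ) := by rw [hCe]; abel
  have hcz : ∀ j, (c j).trace = 0 := hW.lc.tr_zero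
  have hgC : ∀ j, g j = (C * c j).trace := by
    intro j
    show (outp W A B * c j).trace = _
    rw [hout, Matrix.sub_mul, Matrix.trace_sub, Matrix.smul_mul, Matrix.one_mul,
      Matrix.trace_smul, hcz, smul_zero, sub_zero]
  have hgH : ∀ j, (outp W A B * H j).trace = g j := by
    intro j
    rw [hout, Matrix.sub_mul, Matrix.trace_sub, Matrix.smul_mul, Matrix.one_mul,
      Matrix.trace_smul, hH, trace_ladH, hcz, smul_zero, sub_zero,
      trace_mul_ladH hC.isHermitian, hgC]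
  have hgab : ∀ j, g j = (s : ℂ) * (A * a j).trace + (t : ℂ) * (B * b j).trace :=
    fun j => trace_outp_c hW htA htB j
  have nsq : ∀ z : ℂ, ‖z‖ ^ 2 = z.re ^ 2 + z.im ^ 2 := by
    intro z
    rw [← Complex.normSq_eq_norm_sq, Complex.normSq_apply]
    ring
  -- the form of the shifted `H`
  have hdf : ∀ j, dform (Wt M) hC.isHermitian (H j - (g j / C.trace) • (1 : Matrix κ κ ℂ))
      = ((H j)ᴴ * Xl M (c j) C).trace.re - ‖g j‖ ^ 2 / τ := by
    intro j
    rw [hH, dform_ladH hC hM0, ← hgC, hτC, Complex.ofReal_re, norm_div, Complex.norm_real,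
      Real.norm_eq_abs, abs_of_pos hτ0]
    have e1 : (star (g j / (τ : ℂ)) * g j).re = ‖g j‖ ^ 2 / τ := by
      have e2 : star (g j / (τ : ℂ)) * g j = ((‖g j‖ ^ 2 / τ : ℝ) : ℂ) := by
        have := Complex.mul_conj (g j)
        rw [Complex.normSq_eq_norm_sq] at this
        rw [star_div₀]
        have e3 : star (τ : ℂ) = (τ : ℂ) := Complex.conj_ofReal τ
        rw [e3, div_mul_eq_mul_div, mul_comm (star (g j)) (g j)]
        have e4 : g j * star (g j) = ((‖g j‖ ^ 2 : ℝ) : ℂ) := this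
        rw [e4]
        push_cast
        rfl
      rw [e2, Complex.ofReal_re]
    rw [e1]
    field_simp
    ring
  have hGj : ∀ j, ((H j)ᴴ * Xl M (c j) C).trace.re
      = ((Xl M (c j) (outp W A B))ᴴ * H j).trace.re + e * ((c j)ᴴ * H j).trace.re := by
    intro j
    have e1 : Xl M (c j) C = Xl M (c j) (outp W A B) + ((e : ℝ) : ℂ) • c j := by
      rw [← Xl_add_one, ← hCe]
    have e2 : ∀ Y : Matrix κ κ ℂ, ((H j)ᴴ * Y).trace.re = (Yᴴ * H j).trace.re := by
      intro Y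
      have h3 : star ((H j)ᴴ * Y).trace = (Yᴴ * H j).trace := by
        rw [star_trace, Matrix.conjTranspose_mul, Matrix.conjTranspose_conjTranspose]
      rw [← h3]
      simp
    rw [e1, Matrix.mul_add, Matrix.trace_add, Complex.add_re, e2, Matrix.mul_smul,
      Matrix.trace_smul, smul_eq_mul, Complex.re_ofReal_mul, e2]
  -- per mode inequality
  have hj : ∀ j, (2 * ((1 + δ) * s) * (((Xl NA (a j) A)ᴴ * EA W B (H j)).trace.re
          - (g j * star (A * a j).trace).re)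
        - ((1 + δ) * s) ^ 2 * (((ladH (bb NA) (a j) A)ᴴ * Xl NA (a j) A).trace.re
          - ‖(A * a j).trace‖ ^ 2))
      + (2 * ((1 + δ) * t) * (((Xl NB (b j) B)ᴴ * EB W A (H j)).trace.re
          - (g j * star (B * b j).trace).re)
        - ((1 + δ) * t) ^ 2 * (((ladH (bb NB) (b j) B)ᴴ * Xl NB (b j) B).trace.re
          - ‖(B * b j).trace‖ ^ 2))
      ≤ (1 + δ) * ((((Xl M (c j) (outp W A B))ᴴ * H j).trace.re + e * ((c j)ᴴ * H j).trace.re)
          - ‖g j‖ ^ 2 / τ)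
        - δ * dform (fun x y => 1 / (x + y)) hC.isHermitian
            (Xl M (c j) C - ((outp W A B * c j).trace / C.trace) • C) := by
    intro j
    have k1 := side_A W (B := B) hA htA hNA (a j) (H j) ((1 + δ) * s)
    have k2 := side_B W (A := A) hB htB hNB (b j) (H j) ((1 + δ) * t)
    have k3 := hOI (H j - (g j / C.trace) • (1 : Matrix κ κ ℂ))
    rw [EAc_shift hW.iso htA htB, EBc_shift hW.iso htA htB, hdf] at k3
    have k4 : dform (fun x y => Wt M x y ^ 2 / (x + y)) hC.isHermitian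
        (H j - (g j / C.trace) • (1 : Matrix κ κ ℂ))
        = dform (fun x y => 1 / (x + y)) hC.isHermitian
            (Xl M (c j) C - ((outp W A B * c j).trace / C.trace) • C) :=
      dform_room hC hM0 (c j) (g j / C.trace)
    rw [k4, hGj] at k3
    rw [hgH] at k1 k2
    linarith
  -- sums
  have hsum := Finset.sum_le_sum (s := Finset.univ) fun j (_ : j ∈ Finset.univ) => hj j
  have r1 : ∀ j, s * (g j * star (A * a j).trace).re + t * (g j * star (B * b j).trace).re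
      = ‖g j‖ ^ 2 := by
    intro j
    have e1 := congrArg Complex.re (hgab j)
    have e2 := congrArg Complex.im (hgab j)
    simp only [Complex.add_re, Complex.add_im, Complex.mul_re, Complex.mul_im, Complex.ofReal_re,
      Complex.ofReal_im, zero_mul, sub_zero, add_zero] at e1 e2
    rw [nsq]
    simp only [Complex.mul_re, Complex.star_def, Complex.conj_re, Complex.conj_im]
    linear_combination (-(g j).re) * e1 - (g j).im * e2
  have r2 : ∀ j, ‖g j‖ ^ 2 = s ^ 2 * ‖(A * a j).trace‖ ^ 2 + t ^ 2 * ‖(B * b j).trace‖ ^ 2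
      + 2 * (s * t * (star (A * a j).trace * (B * b j).trace).re) := by
    intro j
    have e1 := congrArg Complex.re (hgab j)
    have e2 := congrArg Complex.im (hgab j)
    simp only [Complex.add_re, Complex.add_im, Complex.mul_re, Complex.mul_im, Complex.ofReal_re,
      Complex.ofReal_im, zero_mul, sub_zero, add_zero] at e1 e2
    rw [nsq, nsq, nsq, e1, e2]
    simp only [Complex.mul_re, Complex.star_def, Complex.conj_re, Complex.conj_im]
    ring
  have R1 : s * ∑ j, (g j * star (A * a j).trace).re + t * ∑ j, (g j * star (B * b j).trace).re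
      = ∑ j, ‖g j‖ ^ 2 := by
    rw [Finset.mul_sum, Finset.mul_sum, ← Finset.sum_add_distrib]
    exact Finset.sum_congr rfl fun j _ => r1 j
  have R2 : ∑ j, ‖g j‖ ^ 2 = ∑ j, (s ^ 2 * ‖(A * a j).trace‖ ^ 2 + t ^ 2 * ‖(B * b j).trace‖ ^ 2)
      + 2 * (s * t * ∑ j, (star (A * a j).trace * (B * b j).trace).re) := by
    rw [Finset.mul_sum, Finset.mul_sum, ← Finset.sum_add_distrib]
    exact Finset.sum_congr rfl fun j _ => r2 j
  have R3 : ∑ j, (s ^ 2 * ‖(A * a j).trace‖ ^ 2 + t ^ 2 * ‖(B * b j).trace‖ ^ 2)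
      = s ^ 2 * ∑ j, ‖(A * a j).trace‖ ^ 2 + t ^ 2 * ∑ j, ‖(B * b j).trace‖ ^ 2 := by
    rw [Finset.mul_sum, Finset.mul_sum, ← Finset.sum_add_distrib]
  simp only [Finset.sum_add_distrib, Finset.sum_sub_distrib, ← Finset.mul_sum, mul_add, mul_sub,
    ← Finset.sum_div] at hsum
  have hGA : GG NA a A = ∑ j, ((ladH (bb NA) (a j) A)ᴴ * Xl NA (a j) A).trace.re := rfl
  have hGB : GG NB b B = ∑ j, ((ladH (bb NB) (b j) B)ᴴ * Xl NB (b j) B).trace.re := rfl
  rw [hGA] at h1A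
  rw [hGB] at h1B
  have hSg : 0 ≤ ∑ j, ‖g j‖ ^ 2 := Finset.sum_nonneg fun j _ => by positivity
  have hdiv : ∑ j, ‖g j‖ ^ 2 - (∑ j, ‖g j‖ ^ 2) / τ
      ≤ e * (Fintype.card κ : ℝ) * ∑ j, ‖g j‖ ^ 2 := by
    rw [sub_le_iff_le_add, ← sub_le_iff_le_add', le_div_iff₀ hτ0, hτ]
    nlinarith [mul_nonneg (mul_nonneg hcard hcard) hSg]
  have habs := (abs_le.1 h2).1
  have hcH := mul_le_mul_of_nonneg_left
    (le_abs_self (∑ j, ((c j)ᴴ * ladH (bb M) (c j) C).trace.re)) he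
  have m1 := mul_le_mul_of_nonneg_left (add_le_add h1A h1B) (by linarith : (0 : ℝ) ≤ 1 + δ)
  have m2 := mul_le_mul_of_nonneg_left hdiv (by linarith : (0 : ℝ) ≤ 1 + δ)
  have m3 := mul_le_mul_of_nonneg_left habs (by linarith : (0 : ℝ) ≤ 1 + δ)
  have m4 := mul_le_mul_of_nonneg_left hcH (by linarith : (0 : ℝ) ≤ 1 + δ)
  exact chain_arith hsum R1 R2 R3 hS m1 m2 m3 m4

end

end Vale.Agent.P369.H395
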