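import Vale.Agent.P369.H395.OI

/-!
P369 (helper395): eigen-coordinates of `X_N(A)` and of `H`, the quadratic form and duality.
-/

set_option linter.all false

namespace Vale.Agent.P369.H395

open Vale.Agent.P369.H712 (lm lm_symm lm_self lm_of_ne lm_zero lm_pos lm_nonneg)
open Vale.Agent.P369.FD (dform Wt bb Lg Xl ladH)
open scoped BigOperators Matrix ComplexOrder

noncomputable section

variable {ι : Type} [Fintype ι] [DecidableEq ι]

theorem ec_mul {A : Matrix ι ι ℂ} (hA : A.IsHermitian) (Y Z : Matrix ι ι ℂ) :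
    ec hA (Y * Z) = ec hA Y * ec hA Z := by
  rw [ec, ec, ec]
  calc (Um hA)ᴴ * (Y * Z) * Um hA = (Um hA)ᴴ * Y * 1 * Z * Um hA := by
        simp only [Matrix.mul_assoc, Matrix.one_mul]
    _ = (Um hA)ᴴ * Y * (Um hA * (Um hA)ᴴ) * Z * Um hA := by rw [Um_mul']
    _ = (Um hA)ᴴ * Y * Um hA * ((Um hA)ᴴ * Z * Um hA) := by simp only [Matrix.mul_assoc]

theorem ec_add {A : Matrix ι ι ℂ} (hA : A.IsHermitian) (Y Z : Matrix ι ι ℂ) :
    ec hA (Y + Z) = ec hA Y + ec hA Z := by
  simp only [ec, Matrix.mul_add, Matrix.add_mul]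

theorem ec_sub {A : Matrix ι ι ℂ} (hA : A.IsHermitian) (Y Z : Matrix ι ι ℂ) :
    ec hA (Y - Z) = ec hA Y - ec hA Z := by
  simp only [ec, Matrix.mul_sub, Matrix.sub_mul]

theorem ec_smul {A : Matrix ι ι ℂ} (hA : A.IsHermitian) (r : ℂ) (Z : Matrix ι ι ℂ) :
    ec hA (r • Z) = r • ec hA Z := by
  simp only [ec, Matrix.mul_smul, Matrix.smul_mul]

theorem ec_one {A : Matrix ι ι ℂ} (hA : A.IsHermitian) : ec hA (1 : Matrix ι ι ℂ) = 1 := by
  rw [ec, Matrix.mul_one, Um_mul]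

theorem ec_conjTranspose {A : Matrix ι ι ℂ} (hA : A.IsHermitian) (Z : Matrix ι ι ℂ) :
    ec hA Zᴴ = (ec hA Z)ᴴ := by
  simp only [ec, Matrix.conjTranspose_mul, Matrix.conjTranspose_conjTranspose, Matrix.mul_assoc]

theorem trace_ec {A : Matrix ι ι ℂ} (hA : A.IsHermitian) (Z : Matrix ι ι ℂ) :
    (ec hA Z).trace = Z.trace := by
  rw [ec, Matrix.trace_mul_comm, ← Matrix.mul_assoc, Um_mul', Matrix.one_mul]

theorem cfc_eq_um {A : Matrix ι ι ℂ} (hA : A.IsHermitian) (f : ℝ → ℝ) :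
    cfc f A = Um hA * Matrix.diagonal (fun k => ((f (hA.eigenvalues k) : ℝ) : ℂ)) * (Um hA)ᴴ := by
  rw [hA.cfc_eq, Matrix.IsHermitian.cfc, Unitary.conjStarAlgAut_apply]
  rfl

theorem ec_cfc {A : Matrix ι ι ℂ} (hA : A.IsHermitian) (f : ℝ → ℝ) :
    ec hA (cfc f A) = Matrix.diagonal (fun k => ((f (hA.eigenvalues k) : ℝ) : ℂ)) := by
  rw [cfc_eq_um hA, ec_inv]

theorem ec_Lg {A : Matrix ι ι ℂ} (hA : A.IsHermitian) :
    ec hA (Lg A) = Matrix.diagonal (fun k => ((Real.log (hA.eigenvalues k) : ℝ) : ℂ)) :=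
  ec_cfc hA _

theorem ec_self {A : Matrix ι ι ℂ} (hA : A.IsHermitian) :
    ec hA A = Matrix.diagonal (fun k => ((hA.eigenvalues k : ℝ) : ℂ)) := by
  have h := ec_cfc hA (id : ℝ → ℝ)
  rw [cfc_id ℝ A] at h
  exact h

theorem mul_Lg_comm {A : Matrix ι ι ℂ} (hA : A.IsHermitian) : A * Lg A = Lg A * A := by
  have h : ec hA (A * Lg A) = ec hA (Lg A * A) := by
    rw [ec_mul, ec_mul, ec_Lg, ec_self, Matrix.diagonal_mul_diagonal, Matrix.diagonal_mul_diagonal]
    congr 1
    funext k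
    ring
  rw [← inv_ec hA (A * Lg A), h, inv_ec]

/-- the entries of `X_N(A)` -/
theorem ec_Xl {A : Matrix ι ι ℂ} (hA : A.IsHermitian) (N : ℝ) (a : Matrix ι ι ℂ) (k l : ι) :
    ec hA (Xl N a A) k l
      = (((N + 1) * hA.eigenvalues l - N * hA.eigenvalues k : ℝ) : ℂ) * ec hA a k l := by
  rw [Xl, ec_sub, ec_smul, ec_smul, ec_mul, ec_mul, ec_self, Matrix.sub_apply, Matrix.smul_apply,
    Matrix.smul_apply, Matrix.mul_diagonal, Matrix.diagonal_mul]
  simp only [smul_eq_mul]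
  push_cast
  ring

/-- the entries of `H` -/
theorem ec_ladH {A : Matrix ι ι ℂ} (hA : A.IsHermitian) (b : ℝ) (a : Matrix ι ι ℂ) (k l : ι) :
    ec hA (ladH b a A) k l
      = ((1 + 1 / b * (Real.log (hA.eigenvalues l) - Real.log (hA.eigenvalues k)) : ℝ) : ℂ)
        * ec hA a k l := by
  rw [ladH, ec_add, ec_smul, ec_sub, ec_mul, ec_mul, ec_Lg, Matrix.add_apply, Matrix.smul_apply,
    Matrix.sub_apply, Matrix.mul_diagonal, Matrix.diagonal_mul]
  simp only [smul_eq_mul]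
  push_cast
  ring

theorem Wt_mul {N x y : ℝ} (hN : 0 < N) (hx : 0 < x) (hy : 0 < y) :
    Wt N x y * (1 + 1 / bb N * (Real.log y - Real.log x)) = (N + 1) * y - N * x := by
  have hb : 0 < bb N := bt_pos hN
  have hN1 : (0 : ℝ) < N + 1 := by linarith
  have hlx : Real.log (N * x) = Real.log N + Real.log x := Real.log_mul hN.ne' hx.ne'
  have hly : Real.log ((N + 1) * y) = Real.log (N + 1) + Real.log y :=
    Real.log_mul hN1.ne' hy.ne'
  have hbe : bb N = Real.log (N + 1) - Real.log N := by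
    show Real.log (1 + 1 / N) = _
    rw [← Real.log_div hN1.ne' hN.ne']
    congr 1
    field_simp
  have e1 : Wt N x y * (1 + 1 / bb N * (Real.log y - Real.log x))
      = lm (N * x) ((N + 1) * y) * (Real.log ((N + 1) * y) - Real.log (N * x)) := by
    show bb N * lm (N * x) ((N + 1) * y) * (1 + 1 / bb N * (Real.log y - Real.log x)) = _
    have : bb N * (1 + 1 / bb N * (Real.log y - Real.log x))
        = Real.log ((N + 1) * y) - Real.log (N * x) := by
      rw [hlx, hly]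
      field_simp
      rw [hbe]
      ring
    rw [← this]
    ring
  rw [e1]
  by_cases h : N * x = (N + 1) * y
  · rw [h, sub_self, mul_zero]
    linarith
  · have h2 : Real.log (N * x) - Real.log ((N + 1) * y) ≠ 0 := by
      intro h3
      exact h (Real.log_injOn_pos (Set.mem_Ioi.2 (by positivity)) (Set.mem_Ioi.2 (by positivity))
        (sub_eq_zero.1 h3))
    rw [lm_of_ne (by positivity) (by positivity) h, div_mul_eq_mul_div, div_eq_iff h2]
    ring

theorem Wt_self {N x : ℝ} (hN : 0 < N) (hx : 0 < x) : Wt N x x = x := by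
  have := Wt_mul hN hx hx
  rw [sub_self, mul_zero, add_zero, mul_one] at this
  rw [this]; ring

theorem Wt_pos {N x y : ℝ} (hN : 0 < N) (hx : 0 < x) (hy : 0 < y) : 0 < Wt N x y :=
  mul_pos (bt_pos hN) (lm_pos (by positivity) (by positivity))

/-- `X - m A` is the image of `H - m` under the weights -/
theorem ec_X_H {A : Matrix ι ι ℂ} (hA : A.PosDef) {N : ℝ} (hN : 0 < N) (a : Matrix ι ι ℂ)
    (m : ℂ) (k l : ι) :
    ec hA.isHermitian (Xl N a A - m • A) k l
      = ((Wt N (hA.isHermitian.eigenvalues k) (hA.isHermitian.eigenvalues l) : ℝ) : ℂ)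
        * ec hA.isHermitian (ladH (bb N) a A - m • (1 : Matrix ι ι ℂ)) k l := by
  have hk := hA.eigenvalues_pos k
  have hl := hA.eigenvalues_pos l
  rw [ec_sub, ec_sub, Matrix.sub_apply, Matrix.sub_apply, ec_Xl, ec_ladH, ec_smul, ec_smul,
    Matrix.smul_apply, Matrix.smul_apply, ec_self, ec_one]
  have h1 := Wt_mul hN hk hl
  rw [mul_sub, ← mul_assoc, ← Complex.ofReal_mul, h1]
  congr 1
  by_cases hkl : k = l
  · subst hkl
    rw [Matrix.diagonal_apply_eq, Matrix.one_apply_eq, Wt_self hN hk]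
    simp only [smul_eq_mul]
    ring
  · rw [Matrix.diagonal_apply_ne _ hkl, Matrix.one_apply_ne hkl]
    simp

/-- the bilinear form -/
def dip (φ : ℝ → ℝ → ℝ) {A : Matrix ι ι ℂ} (hA : A.IsHermitian) (Y Z : Matrix ι ι ℂ) : ℝ :=
  ∑ k, ∑ l, φ (hA.eigenvalues k) (hA.eigenvalues l) * (star (ec hA Y k l) * ec hA Z k l).re

theorem trace_re_ec {A : Matrix ι ι ℂ} (hA : A.IsHermitian) (Y V : Matrix ι ι ℂ) :
    (Yᴴ * V).trace.re = ∑ k, ∑ l, (star (ec hA Y k l) * ec hA V k l).re := by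
  rw [← trace_ec hA, ec_mul, ec_conjTranspose, Matrix.trace, Complex.re_sum]
  simp only [Matrix.diag_apply, Matrix.mul_apply, Matrix.conjTranspose_apply, Complex.re_sum]
  rw [Finset.sum_comm]

theorem dip_eq {φ : ℝ → ℝ → ℝ} {A : Matrix ι ι ℂ} (hA : A.IsHermitian) (Y : Matrix ι ι ℂ)
    {Z V : Matrix ι ι ℂ}
    (hV : ∀ k l, ec hA V k l = ((φ (hA.eigenvalues k) (hA.eigenvalues l) : ℝ) : ℂ) * ec hA Z k l) :
    dip φ hA Y Z = (Yᴴ * V).trace.re := by
  rw [trace_re_ec hA, dip]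
  refine Finset.sum_congr rfl fun k _ => Finset.sum_congr rfl fun l _ => ?_
  rw [hV, mul_left_comm (star (ec hA Y k l)), Complex.re_ofReal_mul]

theorem dform_dip (φ : ℝ → ℝ → ℝ) {A : Matrix ι ι ℂ} (hA : A.IsHermitian) (Z : Matrix ι ι ℂ) :
    dform φ hA Z = dip φ hA Z Z := by
  rw [dform_eq, ds, dip]
  refine Finset.sum_congr rfl fun k _ => Finset.sum_congr rfl fun l _ => ?_
  congr 1
  have h : star (ec hA Z k l) * ec hA Z k l = ((‖ec hA Z k l‖ ^ 2 : ℝ) : ℂ) := by
    rw [mul_comm]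
    have := Complex.mul_conj (ec hA Z k l)
    rw [Complex.normSq_eq_norm_sq] at this
    exact this
  rw [h, Complex.ofReal_re]

theorem dform_quad {φ : ℝ → ℝ → ℝ} {A : Matrix ι ι ℂ} (hA : A.IsHermitian)
    (hφ : ∀ k l, 0 ≤ φ (hA.eigenvalues k) (hA.eigenvalues l)) (κ : ℝ) (Y Z : Matrix ι ι ℂ) :
    2 * κ * dip φ hA Y Z - κ ^ 2 * dform φ hA Z ≤ dform φ hA Y := by
  rw [dform_eq, dform_eq, ds, ds, dip, Finset.mul_sum, Finset.mul_sum, ← Finset.sum_sub_distrib]
  refine Finset.sum_le_sum fun k _ => ?_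
  rw [Finset.mul_sum, Finset.mul_sum, ← Finset.sum_sub_distrib]
  refine Finset.sum_le_sum fun l _ => ?_
  have h := hφ k l
  set y := ec hA Y k l
  set z := ec hA Z k l
  have h1 : 0 ≤ ‖y - (κ : ℂ) * z‖ ^ 2 := by positivity
  have e : ∀ v : ℂ, ‖v‖ ^ 2 = v.re ^ 2 + v.im ^ 2 := by
    intro v
    rw [← Complex.normSq_eq_norm_sq, Complex.normSq_apply]
    ring
  have e2 : (star y * z).re = y.re * z.re + y.im * z.im := by
    simp [Complex.mul_re]
  rw [e] at h1
  simp only [Complex.sub_re, Complex.sub_im, Complex.mul_re, Complex.mul_im, Complex.ofReal_re,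
    Complex.ofReal_im, zero_mul, sub_zero, add_zero] at h1
  rw [e2, e, e]
  have h2 := mul_nonneg h h1
  nlinarith [h2]

theorem trace_Xl (N : ℝ) (a A : Matrix ι ι ℂ) : (Xl N a A).trace = (A * a).trace := by
  rw [Xl, Matrix.trace_sub, Matrix.trace_smul, Matrix.trace_smul, Matrix.trace_mul_comm a A]
  simp only [smul_eq_mul]
  push_cast
  ring

theorem trace_mul_ladH {A : Matrix ι ι ℂ} (hA : A.IsHermitian) (b : ℝ) (a : Matrix ι ι ℂ) :
    (A * ladH b a A).trace = (A * a).trace := by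
  rw [ladH, Matrix.mul_add, Matrix.trace_add, Matrix.mul_smul, Matrix.trace_smul,
    Matrix.mul_sub, Matrix.trace_sub]
  have h : (A * (a * Lg A)).trace = (A * (Lg A * a)).trace := by
    rw [← Matrix.mul_assoc, Matrix.trace_mul_comm, ← Matrix.mul_assoc, ← Matrix.mul_assoc,
      mul_Lg_comm hA]
  rw [h, sub_self, smul_zero, add_zero]

theorem trace_ladH {A : Matrix ι ι ℂ} (b : ℝ) (a : Matrix ι ι ℂ) :
    (ladH b a A).trace = a.trace := by
  rw [ladH, Matrix.trace_add, Matrix.trace_smul, Matrix.trace_sub, Matrix.trace_mul_comm a,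
    sub_self, smul_zero, add_zero]

theorem star_trace {Y : Matrix ι ι ℂ} : star Y.trace = Yᴴ.trace :=
  (Matrix.trace_conjTranspose Y).symm

/-- the weighted form of `H - m` -/
theorem dform_ladH {A : Matrix ι ι ℂ} (hA : A.PosDef) {N : ℝ} (hN : 0 < N) (a : Matrix ι ι ℂ)
    (m : ℂ) :
    dform (Wt N) hA.isHermitian (ladH (bb N) a A - m • (1 : Matrix ι ι ℂ))
      = ((ladH (bb N) a A)ᴴ * Xl N a A).trace.re - 2 * (star m * (A * a).trace).re
        + ‖m‖ ^ 2 * A.trace.re := by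
  rw [dform_dip, dip_eq hA.isHermitian _ (ec_X_H hA hN a m), Matrix.conjTranspose_sub,
    Matrix.conjTranspose_smul, Matrix.conjTranspose_one, Matrix.sub_mul, Matrix.mul_sub,
    Matrix.mul_sub]
  simp only [Matrix.trace_sub, Matrix.trace_smul, Matrix.mul_smul, Matrix.smul_mul,
    Matrix.one_mul, smul_eq_mul, Complex.sub_re, trace_Xl]
  have h1 : ((ladH (bb N) a A)ᴴ * A).trace = star (A * a).trace := by
    rw [← trace_mul_ladH hA.isHermitian (bb N) a, star_trace, Matrix.conjTranspose_mul,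
      hA.isHermitian.eq]
  have h2 : A.trace.im = 0 := by
    have : star A.trace = A.trace := by rw [star_trace, hA.isHermitian.eq]
    exact Complex.conj_eq_iff_im.1 this
  have e : ‖m‖ ^ 2 = m.re ^ 2 + m.im ^ 2 := by
    rw [← Complex.normSq_eq_norm_sq, Complex.normSq_apply]
    ring
  rw [h1, e]
  simp only [Complex.mul_re, Complex.star_def, Complex.conj_re, Complex.conj_im, h2, Complex.mul_im]
  ring

/-- the room term of `H - m` -/
theorem dform_room {A : Matrix ι ι ℂ} (hA : A.PosDef) {N : ℝ} (hN : 0 < N) (a : Matrix ι ι ℂ)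
    (m : ℂ) :
    dform (fun x y => Wt N x y ^ 2 / (x + y)) hA.isHermitian
        (ladH (bb N) a A - m • (1 : Matrix ι ι ℂ))
      = dform (fun x y => 1 / (x + y)) hA.isHermitian (Xl N a A - m • A) := by
  rw [dform_eq, dform_eq, ds, ds]
  refine Finset.sum_congr rfl fun k _ => Finset.sum_congr rfl fun l _ => ?_
  rw [ec_X_H hA hN, norm_mul, Complex.norm_real, Real.norm_eq_abs, mul_pow, sq_abs]
  ring

/-- duality: lower bound of the form of `Y` by the pairing with `X` -/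
theorem dual_le {A : Matrix ι ι ℂ} (hA : A.PosDef) (htr : A.trace = 1) {N : ℝ} (hN : 0 < N)
    (a Y : Matrix ι ι ℂ) (hY : (A * Y).trace = 0) (κ : ℝ) :
    2 * κ * ((Xl N a A)ᴴ * Y).trace.re
        - κ ^ 2 * (((ladH (bb N) a A)ᴴ * Xl N a A).trace.re - ‖(A * a).trace‖ ^ 2)
      ≤ dform (Wt N) hA.isHermitian Y := by
  have h1 := dform_quad hA.isHermitian (φ := Wt N)
    (fun k l => (Wt_pos hN (hA.eigenvalues_pos k) (hA.eigenvalues_pos l)).le) κ Y
    (ladH (bb N) a A - (A * a).trace • (1 : Matrix ι ι ℂ))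
  rw [dform_ladH hA hN, dip_eq hA.isHermitian _ (ec_X_H hA hN a _), htr, Matrix.mul_sub,
    Matrix.trace_sub, Matrix.mul_smul, Matrix.trace_smul] at h1
  have h2 : (Yᴴ * A).trace = 0 := by
    have h3 : star (A * Y).trace = (Yᴴ * A).trace := by
      rw [star_trace, Matrix.conjTranspose_mul, hA.isHermitian.eq]
    rw [← h3, hY, star_zero]
  have h4 : (Yᴴ * Xl N a A).trace.re = ((Xl N a A)ᴴ * Y).trace.re := by
    have h3 : star ((Xl N a A)ᴴ * Y).trace = (Yᴴ * Xl N a A).trace := by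
      rw [star_trace, Matrix.conjTranspose_mul, Matrix.conjTranspose_conjTranspose]
    rw [← h3]
    simp
  have h5 : (star (A * a).trace * (A * a).trace).re = ‖(A * a).trace‖ ^ 2 := by
    rw [mul_comm]
    have := Complex.mul_conj (A * a).trace
    rw [Complex.normSq_eq_norm_sq] at this
    have h6 : (A * a).trace * star (A * a).trace = ((‖(A * a).trace‖ ^ 2 : ℝ) : ℂ) := this
    rw [h6, Complex.ofReal_re]
  rw [h2, smul_zero, sub_zero, h4, h5, Complex.one_re] at h1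
  refine le_trans (le_of_eq ?_) h1
  ring

end

end Vale.Agent.P369.H395
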