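import Vale.Agent.P369.H395.OIw
import Vale.Agent.P369.FD.Stmts

/-!
P369 (helper395): package OI of the finite-matrix track.
-/

namespace Vale.Agent.P369.H395

open Vale.Agent.P369.H712 (lm)
open Vale.Agent.P369.FD (dform Wt bb)
open scoped BigOperators Matrix ComplexOrder

noncomputable section

variable {ι ι' κ : Type} [Fintype ι] [DecidableEq ι] [Fintype ι'] [DecidableEq ι']
  [Fintype κ] [DecidableEq κ]

/-- the eigenvector matrix -/
def Um {A : Matrix ι ι ℂ} (hA : A.IsHermitian) : Matrix ι ι ℂ :=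
  (hA.eigenvectorUnitary : Matrix ι ι ℂ)

theorem Um_mul {A : Matrix ι ι ℂ} (hA : A.IsHermitian) : (Um hA)ᴴ * Um hA = 1 :=
  Unitary.coe_star_mul_self hA.eigenvectorUnitary

theorem Um_mul' {A : Matrix ι ι ℂ} (hA : A.IsHermitian) : Um hA * (Um hA)ᴴ = 1 :=
  Unitary.coe_mul_star_self hA.eigenvectorUnitary

/-- matrix in eigen-coordinates -/
def ec {A : Matrix ι ι ℂ} (hA : A.IsHermitian) (Z : Matrix ι ι ℂ) : Matrix ι ι ℂ :=
  (Um hA)ᴴ * Z * Um hA

theorem dform_eq (φ : ℝ → ℝ → ℝ) {A : Matrix ι ι ℂ} (hA : A.IsHermitian) (Z : Matrix ι ι ℂ) :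
    dform φ hA Z = ds φ hA.eigenvalues (ec hA Z) := rfl

/-- the map in eigen-coordinates -/
def ecm {A : Matrix ι ι ℂ} (hA : A.IsHermitian) {C : Matrix κ κ ℂ} (hC : C.IsHermitian)
    (T : Matrix κ κ ℂ →ₗ[ℂ] Matrix ι ι ℂ) : Matrix κ κ ℂ →ₗ[ℂ] Matrix ι ι ℂ where
  toFun Z := (Um hA)ᴴ * T (Um hC * Z * (Um hC)ᴴ) * Um hA
  map_add' Y Z := by
    simp only [Matrix.mul_add, Matrix.add_mul, map_add]
  map_smul' c Z := by
    simp only [Matrix.mul_smul, Matrix.smul_mul, map_smul, RingHom.id_apply]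

theorem ecm_apply {A : Matrix ι ι ℂ} (hA : A.IsHermitian) {C : Matrix κ κ ℂ}
    (hC : C.IsHermitian) (T : Matrix κ κ ℂ →ₗ[ℂ] Matrix ι ι ℂ) (Z : Matrix κ κ ℂ) :
    ecm hA hC T Z = ec hA (T (Um hC * Z * (Um hC)ᴴ)) := rfl

theorem ec_inv {C : Matrix κ κ ℂ} (hC : C.IsHermitian) (Z : Matrix κ κ ℂ) :
    ec hC (Um hC * Z * (Um hC)ᴴ) = Z := by
  rw [ec]
  calc (Um hC)ᴴ * (Um hC * Z * (Um hC)ᴴ) * Um hC
      = ((Um hC)ᴴ * Um hC) * Z * ((Um hC)ᴴ * Um hC) := by simp only [Matrix.mul_assoc]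
    _ = Z := by rw [Um_mul, Matrix.one_mul, Matrix.mul_one]

theorem inv_ec {C : Matrix κ κ ℂ} (hC : C.IsHermitian) (Z : Matrix κ κ ℂ) :
    Um hC * ec hC Z * (Um hC)ᴴ = Z := by
  rw [ec]
  calc Um hC * ((Um hC)ᴴ * Z * Um hC) * (Um hC)ᴴ
      = (Um hC * (Um hC)ᴴ) * Z * (Um hC * (Um hC)ᴴ) := by simp only [Matrix.mul_assoc]
    _ = Z := by rw [Um_mul', Matrix.one_mul, Matrix.mul_one]

theorem thm_OI : FD.S_OI := by
  intro ι ι' κ _ _ _ _ _ _ A B C hA hB hC TA TB η₁ η₂ NA NB δ h1 h2 h12 hNA hNB hδ dp1 dp0 so so' Z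
  have hM : 0 < η₁ * NA + η₂ * NB := by positivity
  have key := oi_weights (T := ecm hA.isHermitian hC.isHermitian TA)
    (T' := ecm hB.isHermitian hC.isHermitian TB) hA.eigenvalues_pos hB.eigenvalues_pos
    hC.eigenvalues_pos hNA hNB hM hδ rfl h12
    (fun Z => by
      have := so (Um hC.isHermitian * Z * (Um hC.isHermitian)ᴴ)
      rw [dform_eq, dform_eq, ec_inv] at this
      exact this)
    (fun Z => by
      have := so' (Um hC.isHermitian * Z * (Um hC.isHermitian)ᴴ)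
      rw [dform_eq, dform_eq, ec_inv] at this
      exact this)
    (fun Z => by
      have := dp0 (Um hC.isHermitian * Z * (Um hC.isHermitian)ᴴ)
      rw [dform_eq, dform_eq, dform_eq, ec_inv] at this
      exact this)
    (fun Z => by
      have := dp1 (Um hC.isHermitian * Z * (Um hC.isHermitian)ᴴ)
      rw [dform_eq, dform_eq, dform_eq, ec_inv] at this
      exact this)
    (ec hC.isHermitian Z)
  rw [ecm_apply, ecm_apply, inv_ec] at key
  have e := le_sub_iff_add_le.2 key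
  exact e

end

end Vale.Agent.P369.H395
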