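import Vale.Agent.P369.H395.Weights

/-!
P369 (helper395): the operator inequality for two families of double sums with weights in the
eigenvalues.
-/

namespace Vale.Agent.P369.H395

open Vale.Agent.P369.H255
open Vale.Agent.P369.H712 (lm lm_symm lm_self lm_of_ne lm_zero lm_pos lm_nonneg)
open scoped BigOperators Matrix

noncomputable section

/-- the inverse temperature `log (1 + 1/N)` -/
def bt (N : ℝ) : ℝ := Real.log (1 + 1 / N)

theorem bt_pos {N : ℝ} (hN : 0 < N) : 0 < bt N := Real.log_pos (by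
  have : 0 < 1 / N := by positivity
  linarith)

theorem p0_bt {N : ℝ} (hN : 0 < N) : p0 (bt N) = bt N * N := by
  have hexp : Real.exp (bt N) = 1 + 1 / N := Real.exp_log (by positivity)
  have := bt_pos hN
  rw [p0_of_ne this.ne', hexp]
  field_simp
  ring

theorem p1_bt {N : ℝ} (hN : 0 < N) : p1 (bt N) = bt N * (N + 1) := by
  rw [p1, p0_bt hN]; ring

/-- the weight `b · lm (N x) ((N+1) y)` -/
def wt (N x y : ℝ) : ℝ := bt N * lm (N * x) ((N + 1) * y)

theorem wt_eq {x y N : ℝ} (hx : 0 < x) (hy : 0 < y) (hN : 0 < N) :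
    wt N x y = lm x y * Gf (Real.log x - Real.log y) (bt N) := (lm_Gf hx hy hN).symm

theorem wt_pos {x y N : ℝ} (hx : 0 < x) (hy : 0 < y) (hN : 0 < N) : 0 < wt N x y :=
  mul_pos (bt_pos hN) (lm_pos (by positivity) (by positivity))

variable {ι ι' κ : Type} [Fintype ι] [Fintype ι'] [Fintype κ]

/-- the double sum with weight `φ` -/
def ds (φ : ℝ → ℝ → ℝ) (p : ι → ℝ) (Z : Matrix ι ι ℂ) : ℝ :=
  ∑ k, ∑ l, φ (p k) (p l) * ‖Z k l‖ ^ 2

theorem ds_prod (φ : ℝ → ℝ → ℝ) (p : ι → ℝ) (Z : Matrix ι ι ℂ) :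
    ds φ p Z = ∑ x : ι × ι, φ (p x.1) (p x.2) * ‖Z x.1 x.2‖ ^ 2 := by
  rw [Fintype.sum_prod_type]
  rfl

section

variable (p : ι → ℝ) (p' : ι' → ℝ) (q : κ → ℝ)
  (T : Matrix κ κ ℂ →ₗ[ℂ] Matrix ι ι ℂ) (T' : Matrix κ κ ℂ →ₗ[ℂ] Matrix ι' ι' ℂ)

/-- unscaling -/
def uns : (κ × κ → ℂ) →ₗ[ℂ] Matrix κ κ ℂ where
  toFun h := Matrix.of fun k l => (((Real.sqrt (lm (q k) (q l)))⁻¹ : ℝ) : ℂ) * h (k, l)
  map_add' h g := by
    ext k l
    simp only [Matrix.of_apply, Matrix.add_apply, Pi.add_apply]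
    ring
  map_smul' c h := by
    ext k l
    simp only [Matrix.of_apply, Matrix.smul_apply, Pi.smul_apply, smul_eq_mul, RingHom.id_apply]
    ring

omit [Fintype κ] in
theorem uns_apply (h : κ × κ → ℂ) (k l : κ) :
    uns q h k l = (((Real.sqrt (lm (q k) (q l)))⁻¹ : ℝ) : ℂ) * h (k, l) := rfl

/-- the scaled map -/
def scm : (κ × κ → ℂ) →ₗ[ℂ] ((ι × ι) ⊕ (ι' × ι') → ℂ) where
  toFun h := Sum.elim
    (fun x => (Real.sqrt (lm (p x.1) (p x.2)) : ℝ) * T (uns q h) x.1 x.2)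
    (fun x => (Real.sqrt (lm (p' x.1) (p' x.2)) : ℝ) * T' (uns q h) x.1 x.2)
  map_add' h g := by
    funext x
    rcases x with x | x
    · simp [mul_add]
    · simp [mul_add]
  map_smul' c h := by
    funext x
    rcases x with x | x
    · simp only [map_smul, Sum.elim_inl, Pi.smul_apply, smul_eq_mul, RingHom.id_apply,
        Matrix.smul_apply]
      ring
    · simp only [map_smul, Sum.elim_inr, Pi.smul_apply, smul_eq_mul, RingHom.id_apply,
        Matrix.smul_apply]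
      ring

variable {p p' q T T'}

omit [Fintype κ] in
theorem sum_scm (hp : ∀ k, 0 < p k) (hp' : ∀ k, 0 < p' k) (a : (ι × ι) ⊕ (ι' × ι') → ℝ)
    (h : κ × κ → ℂ) :
    ∑ j, a j * ‖scm p p' q T T' h j‖ ^ 2
      = ∑ x : ι × ι, lm (p x.1) (p x.2) * a (Sum.inl x) * ‖T (uns q h) x.1 x.2‖ ^ 2
        + ∑ x : ι' × ι', lm (p' x.1) (p' x.2) * a (Sum.inr x) * ‖T' (uns q h) x.1 x.2‖ ^ 2 := by
  rw [Fintype.sum_sum_type]
  congr 1
  · refine Finset.sum_congr rfl fun x _ => ?_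
    have h1 := lm_pos (hp x.1) (hp x.2)
    simp only [scm, LinearMap.coe_mk, AddHom.coe_mk, Sum.elim_inl, norm_mul, Complex.norm_real,
      Real.norm_eq_abs, mul_pow, sq_abs, Real.sq_sqrt h1.le]
    ring
  · refine Finset.sum_congr rfl fun x _ => ?_
    have h1 := lm_pos (hp' x.1) (hp' x.2)
    simp only [scm, LinearMap.coe_mk, AddHom.coe_mk, Sum.elim_inr, norm_mul, Complex.norm_real,
      Real.norm_eq_abs, mul_pow, sq_abs, Real.sq_sqrt h1.le]
    ring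

theorem sum_uns (hq : ∀ k, 0 < q k) (A : κ × κ → ℝ) (h : κ × κ → ℂ) :
    ∑ i, A i * ‖h i‖ ^ 2 = ∑ x : κ × κ, lm (q x.1) (q x.2) * A x * ‖uns q h x.1 x.2‖ ^ 2 := by
  refine Finset.sum_congr rfl fun x _ => ?_
  have h1 := lm_pos (hq x.1) (hq x.2)
  rw [uns_apply]
  simp only [norm_mul, Complex.norm_real,
    Real.norm_eq_abs, mul_pow, sq_abs, inv_pow, Real.sq_sqrt h1.le]
  field_simp

theorem dom_scm (hp : ∀ k, 0 < p k) (hp' : ∀ k, 0 < p' k) (hq : ∀ k, 0 < q k)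
    [DecidableEq κ]
    {a : (ι × ι) ⊕ (ι' × ι') → ℝ} {A : κ × κ → ℝ} {φ φ' Φ : ℝ → ℝ → ℝ}
    (ha : ∀ x : ι × ι, lm (p x.1) (p x.2) * a (Sum.inl x) = φ (p x.1) (p x.2))
    (ha' : ∀ x : ι' × ι', lm (p' x.1) (p' x.2) * a (Sum.inr x) = φ' (p' x.1) (p' x.2))
    (hA : ∀ x : κ × κ, lm (q x.1) (q x.2) * A x = Φ (q x.1) (q x.2))
    (h : ∀ Z, ds φ p (T Z) + ds φ' p' (T' Z) ≤ ds Φ q Z) :
    Dom (LinearMap.toMatrix' (scm p p' q T T')) a A := by
  intro g
  rw [LinearMap.toMatrix'_mulVec, sum_scm hp hp', sum_uns hq]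
  simp only [ha, ha', hA]
  have := h (uns q g)
  rwa [ds_prod, ds_prod, ds_prod] at this

/-- **The operator inequality** for double sums. -/
theorem oi_weights [DecidableEq κ] (hp : ∀ k, 0 < p k) (hp' : ∀ k, 0 < p' k)
    (hq : ∀ k, 0 < q k)
    {N N' M η η' δ : ℝ} (hN : 0 < N) (hN' : 0 < N') (hM : 0 < M) (hδ : 0 ≤ δ)
    (hMN : η * N + η' * N' = M) (hη : η + η' = 1)
    (so : ∀ Z, ds lm p (T Z) ≤ (1 + δ) * (η * bt M / bt N) * ds lm q Z)
    (so' : ∀ Z, ds lm p' (T' Z) ≤ (1 + δ) * (η' * bt M / bt N') * ds lm q Z)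
    (dp0 : ∀ Z, ds (fun _ y => y) p (T Z) + ds (fun _ y => y) p' (T' Z)
      ≤ ds (fun _ y => y) q Z)
    (dp1 : ∀ Z, ds (fun x _ => x) p (T Z) + ds (fun x _ => x) p' (T' Z)
      ≤ ds (fun x _ => x) q Z) (Z : Matrix κ κ ℂ) :
    ds (wt N) p (T Z) + ds (wt N') p' (T' Z)
        + δ * ds (fun x y => wt M x y ^ 2 / (x + y)) q Z ≤ (1 + δ) * ds (wt M) q Z := by
  have hbN := bt_pos hN
  have hbN' := bt_pos hN'
  have hbM := bt_pos hM
  set w : (ι × ι) ⊕ (ι' × ι') → ℝ := Sum.elim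
    (fun x => Real.log (p x.1) - Real.log (p x.2))
    (fun x => Real.log (p' x.1) - Real.log (p' x.2)) with hw
  set b : (ι × ι) ⊕ (ι' × ι') → ℝ := Sum.elim (fun _ => bt N) (fun _ => bt N') with hb
  set W : κ × κ → ℝ := fun x => Real.log (q x.1) - Real.log (q x.2) with hW
  have k : ∀ c c' d : ℝ, 0 ≤ c → 0 ≤ c' → c * (η * bt M / bt N) + c' * (η' * bt M / bt N') = d →
      ∀ Z, ds (fun x y => lm x y * c) p (T Z) + ds (fun x y => lm x y * c') p' (T' Z)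
        ≤ ds (fun x y => lm x y * ((1 + δ) * d)) q Z := by
    intro c c' d hc hc' hd Z
    have h1 := mul_le_mul_of_nonneg_left (so Z) hc
    have h2 := mul_le_mul_of_nonneg_left (so' Z) hc'
    have e : ∀ {α : Type} [Fintype α] (c : ℝ) (r : α → ℝ) (Y : Matrix α α ℂ),
        ds (fun x y => lm x y * c) r Y = c * ds lm r Y := by
      intro α _ c r Y
      simp only [ds, Finset.mul_sum]
      exact Finset.sum_congr rfl fun i _ => Finset.sum_congr rfl fun j _ => by ring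
    rw [e, e, e]
    have e2 : (1 + δ) * d * ds lm q Z = c * ((1 + δ) * (η * bt M / bt N) * ds lm q Z)
        + c' * ((1 + δ) * (η' * bt M / bt N') * ds lm q Z) := by rw [← hd]; ring
    rw [e2]
    exact add_le_add h1 h2
  have H0 : Dom (LinearMap.toMatrix' (scm p p' q T T')) (fun j => p0 (w j))
      (fun i => p0 (W i)) :=
    dom_scm hp hp' hq (fun x => lm_p0 (hp _) (hp _)) (fun x => lm_p0 (hp' _) (hp' _))
      (fun x => lm_p0 (hq _) (hq _)) dp0
  have H1 : Dom (LinearMap.toMatrix' (scm p p' q T T')) (fun j => p1 (w j))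
      (fun i => p1 (W i)) :=
    dom_scm hp hp' hq (fun x => lm_p1 (hp _) (hp _)) (fun x => lm_p1 (hp' _) (hp' _))
      (fun x => lm_p1 (hq _) (hq _)) dp1
  have K0 : Dom (LinearMap.toMatrix' (scm p p' q T T')) (fun j => p0 (b j))
      (fun _ => (1 + δ) * p0 (bt M)) := by
    refine dom_scm hp hp' hq (φ := fun x y => lm x y * p0 (bt N))
      (φ' := fun x y => lm x y * p0 (bt N')) (Φ := fun x y => lm x y * ((1 + δ) * p0 (bt M)))
      (fun x => rfl) (fun x => rfl) (fun x => rfl) ?_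
    refine k _ _ _ (p0_pos _).le (p0_pos _).le ?_
    rw [p0_bt hN, p0_bt hN', p0_bt hM, ← hMN]
    field_simp
  have K1 : Dom (LinearMap.toMatrix' (scm p p' q T T')) (fun j => p1 (b j))
      (fun _ => (1 + δ) * p1 (bt M)) := by
    refine dom_scm hp hp' hq (φ := fun x y => lm x y * p1 (bt N))
      (φ' := fun x y => lm x y * p1 (bt N')) (Φ := fun x y => lm x y * ((1 + δ) * p1 (bt M)))
      (fun x => rfl) (fun x => rfl) (fun x => rfl) ?_
    refine k _ _ _ (p1_pos _).le (p1_pos _).le ?_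
    rw [p1_bt hN, p1_bt hN', p1_bt hM]
    have e : bt M * (M + 1) = η * bt M * (N + 1) + η' * bt M * (N' + 1) := by
      linear_combination (-bt M) * hMN - bt M * hη
    rw [e]
    field_simp
  have main := OI_fin' (B := fun _ => bt M) (by linarith) H0 H1 K0 K1
    (fun x => (Real.sqrt (lm (q x.1) (q x.2)) : ℝ) * Z x.1 x.2)
  have hu : uns q (fun x => (Real.sqrt (lm (q x.1) (q x.2)) : ℝ) * Z x.1 x.2) = Z := by
    funext k l
    have h1 : Real.sqrt (lm (q k) (q l)) ≠ 0 :=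
      (Real.sqrt_pos.2 (lm_pos (hq k) (hq l))).ne'
    rw [uns_apply, ← mul_assoc, ← Complex.ofReal_mul, inv_mul_cancel₀ h1]
    simp
  have u1 := sum_uns hq (fun i => Gf (W i) (bt M) ^ 2 / (p0 (W i) + p1 (W i)))
    (fun x => (Real.sqrt (lm (q x.1) (q x.2)) : ℝ) * Z x.1 x.2)
  have u2 := sum_uns hq (fun i => Gf (W i) (bt M))
    (fun x => (Real.sqrt (lm (q x.1) (q x.2)) : ℝ) * Z x.1 x.2)
  rw [hu] at u1 u2
  beta_reduce at u1 u2
  rw [LinearMap.toMatrix'_mulVec, sum_scm hp hp', u1, u2, hu] at main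
  have r1 : ∑ x : ι × ι, lm (p x.1) (p x.2) * Gf (w (Sum.inl x)) (b (Sum.inl x))
      * ‖T Z x.1 x.2‖ ^ 2 = ds (wt N) p (T Z) := by
    rw [ds_prod]
    exact Finset.sum_congr rfl fun x _ => by rw [wt_eq (hp _) (hp _) hN]; rfl
  have r2 : ∑ x : ι' × ι', lm (p' x.1) (p' x.2) * Gf (w (Sum.inr x)) (b (Sum.inr x))
      * ‖T' Z x.1 x.2‖ ^ 2 = ds (wt N') p' (T' Z) := by
    rw [ds_prod]
    exact Finset.sum_congr rfl fun x _ => by rw [wt_eq (hp' _) (hp' _) hN']; rfl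
  have r3 : ∑ x : κ × κ, lm (q x.1) (q x.2) * Gf (W x) (bt M) * ‖Z x.1 x.2‖ ^ 2
      = ds (wt M) q Z := by
    rw [ds_prod]
    exact Finset.sum_congr rfl fun x _ => by rw [wt_eq (hq _) (hq _) hM]
  have r4 : ∑ x : κ × κ, lm (q x.1) (q x.2) * (Gf (W x) (bt M) ^ 2 / (p0 (W x) + p1 (W x)))
      * ‖Z x.1 x.2‖ ^ 2 = ds (fun x y => wt M x y ^ 2 / (x + y)) q Z := by
    rw [ds_prod]
    refine Finset.sum_congr rfl fun x _ => ?_
    congr 1
    rw [wt_eq (hq _) (hq _) hM]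
    have h1 := lm_p0 (hq x.1) (hq x.2)
    have h2 := lm_p1 (hq x.1) (hq x.2)
    have h3 := lm_pos (hq x.1) (hq x.2)
    have h4 := p0_pos (W x)
    have h5 := p1_pos (W x)
    have h6 : q x.1 + q x.2 = lm (q x.1) (q x.2) * (p0 (W x) + p1 (W x)) := by
      rw [mul_add, h1, h2]; ring
    have h7 : Gf (Real.log (q x.1) - Real.log (q x.2)) (bt M) = Gf (W x) (bt M) := rfl
    rw [h6, h7]
    field_simp
  rw [r1, r2, r3, r4] at main
  have e : 1 + δ - 1 = δ := by ring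
  rw [e] at main
  exact main

end

end

end Vale.Agent.P369.H395
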