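import Vale.Agent.P369.H255.OIGen

/-!
P369 (helper395): the operator inequality with the remainder in current form.
-/

namespace Vale.Agent.P369.H395

open Vale.Agent.P369.H255
open scoped BigOperators Matrix

noncomputable section

theorem sf_mul (w b : ℝ) : (b - w) * sf w b = qf w - qf b := by
  have hS : 0 < qf w + qf b + 2 * cf w b := by
    have := qf_pos w; have := qf_pos b; have := cf_pos w b; linarith
  rcases eq_or_ne (Ff w) (Ff b) with h | h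
  · have habs : |w| = |b| := by
      rw [← Ff_abs w, ← Ff_abs b] at h
      exact strictAntiOn_Ff.injOn (Set.mem_Ici.2 (abs_nonneg w)) (Set.mem_Ici.2 (abs_nonneg b)) h
    rcases abs_eq_abs.1 habs with e | e
    · rw [e]; ring
    · rw [e, qf_neg, sf]
      have : -b + b = 0 := by ring
      rw [this]
      simp
  · have h1 := cf_eq h
    have hw := qf_sq_sub w
    have hb := qf_sq_sub b
    have key : 4 * (qf w + qf b + 2 * cf w b) * (qf b - qf w) = (b - w) * (b + w) := by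
      linear_combination 4 * h1 + 4 * hb - 4 * hw
    rw [sf, mul_div_assoc', div_eq_iff (by positivity)]
    linear_combination key

/-- `G` is the total current of the network. -/
theorem Gf_cur (w b : ℝ) : Gf w b = p0 w * (1 / 2 - sf w b) + p1 w * (1 / 2 + sf w b) := by
  have hS : 0 < qf w + qf b + 2 * cf w b := by
    have := qf_pos w; have := qf_pos b; have := cf_pos w b; linarith
  have hp : ∀ x, p0 x = qf x - x / 2 := fun x => by rw [qf]; ring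
  have hp1 : ∀ x, p1 x = qf x + x / 2 := fun x => by rw [p1, qf]; ring
  have h1 := sf_mul w b
  have h2 : sf w b * (4 * (qf w + qf b + 2 * cf w b)) = -(w + b) := by
    rw [sf, div_mul_cancel₀ _ (by positivity)]
  rw [Gf_eq, hp, hp, hp1, hp1]
  linear_combination (sf w b / 2) * h2 + (1 / 2 : ℝ) * h1

variable {I J : Type} [Fintype I] [Fintype J] {T : Matrix J I ℂ}

/-- **The operator inequality**, finite matrices, with a factor `κ` and the remainder in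
current form. -/
theorem OI_fin' {w b : J → ℝ} {W B : I → ℝ} {κ : ℝ} (hκ : 1 ≤ κ)
    (h0 : Dom T (fun j => p0 (w j)) (fun i => p0 (W i)))
    (h1 : Dom T (fun j => p1 (w j)) (fun i => p1 (W i)))
    (k0 : Dom T (fun j => p0 (b j)) (fun i => κ * p0 (B i)))
    (k1 : Dom T (fun j => p1 (b j)) (fun i => κ * p1 (B i))) (h : I → ℂ) :
    ∑ j, Gf (w j) (b j) * ‖(T *ᵥ h) j‖ ^ 2
        + (κ - 1) * ∑ i, Gf (W i) (B i) ^ 2 / (p0 (W i) + p1 (W i)) * ‖h i‖ ^ 2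
      ≤ κ * ∑ i, Gf (W i) (B i) * ‖h i‖ ^ 2 := by
  have hc := dom_cf hκ h0 h1 k0 k1
  set s : I → ℝ := fun i => sf (W i) (B i) with hs
  set hm : I → ℂ := fun i => ((1 / 2 - s i : ℝ) : ℂ) * h i with hhm
  set hp : I → ℂ := fun i => ((1 / 2 + s i : ℝ) : ℂ) * h i with hhp
  set he : I → ℂ := fun i => ((s i : ℝ) : ℂ) * h i with hhe
  have e1 : T *ᵥ hm = fun j => (1 / 2 : ℝ) • (T *ᵥ h) j - (T *ᵥ he) j := by
    have : hm = (1 / 2 : ℝ) • h - he := by
      funext i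
      simp only [hhm, hhe, Pi.sub_apply, Pi.smul_apply, Complex.real_smul]
      push_cast
      ring
    rw [this, Matrix.mulVec_sub, Matrix.mulVec_smul]
    rfl
  have e2 : T *ᵥ hp = fun j => (1 / 2 : ℝ) • (T *ᵥ h) j + (T *ᵥ he) j := by
    have : hp = (1 / 2 : ℝ) • h + he := by
      funext i
      simp only [hhp, hhe, Pi.add_apply, Pi.smul_apply, Complex.real_smul]
      push_cast
      ring
    rw [this, Matrix.mulVec_add, Matrix.mulVec_smul]
    rfl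
  have a1 := h0 hm
  have a2 := k0 hm
  have a3 := h1 hp
  have a4 := k1 hp
  have a5 := hc he
  have b1 : ∑ j, Gf (w j) (b j) * ‖(T *ᵥ h) j‖ ^ 2
      ≤ ∑ j, ((p0 (w j) + p0 (b j)) * ‖(T *ᵥ hm) j‖ ^ 2
        + (p1 (w j) + p1 (b j)) * ‖(T *ᵥ hp) j‖ ^ 2
        + 4 * cf (w j) (b j) * ‖(T *ᵥ he) j‖ ^ 2) := by
    refine Finset.sum_le_sum fun j _ => ?_
    rw [e1, e2]
    exact Gf_le _ _ _ _
  have b2 : ∑ j, ((p0 (w j) + p0 (b j)) * ‖(T *ᵥ hm) j‖ ^ 2
        + (p1 (w j) + p1 (b j)) * ‖(T *ᵥ hp) j‖ ^ 2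
        + 4 * cf (w j) (b j) * ‖(T *ᵥ he) j‖ ^ 2)
      = ∑ j, p0 (w j) * ‖(T *ᵥ hm) j‖ ^ 2 + ∑ j, p0 (b j) * ‖(T *ᵥ hm) j‖ ^ 2
        + (∑ j, p1 (w j) * ‖(T *ᵥ hp) j‖ ^ 2 + ∑ j, p1 (b j) * ‖(T *ᵥ hp) j‖ ^ 2)
        + 4 * ∑ j, cf (w j) (b j) * ‖(T *ᵥ he) j‖ ^ 2 := by
    rw [← Finset.sum_add_distrib, ← Finset.sum_add_distrib, ← Finset.sum_add_distrib,
      Finset.mul_sum, ← Finset.sum_add_distrib]
    exact Finset.sum_congr rfl fun j _ => by ring
  have nm : ∀ i, ‖hm i‖ ^ 2 = (1 / 2 - s i) ^ 2 * ‖h i‖ ^ 2 := by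
    intro i
    simp only [hhm, norm_mul, Complex.norm_real, Real.norm_eq_abs, mul_pow, sq_abs]
  have np : ∀ i, ‖hp i‖ ^ 2 = (1 / 2 + s i) ^ 2 * ‖h i‖ ^ 2 := by
    intro i
    simp only [hhp, norm_mul, Complex.norm_real, Real.norm_eq_abs, mul_pow, sq_abs]
  have ne : ∀ i, ‖he i‖ ^ 2 = s i ^ 2 * ‖h i‖ ^ 2 := by
    intro i
    simp only [hhe, norm_mul, Complex.norm_real, Real.norm_eq_abs, mul_pow, sq_abs]
  have b3 : ∑ i, p0 (W i) * ‖hm i‖ ^ 2 + ∑ i, κ * p0 (B i) * ‖hm i‖ ^ 2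
        + (∑ i, p1 (W i) * ‖hp i‖ ^ 2 + ∑ i, κ * p1 (B i) * ‖hp i‖ ^ 2)
        + 4 * ∑ i, κ * cf (W i) (B i) * ‖he i‖ ^ 2
        + (κ - 1) * ∑ i, Gf (W i) (B i) ^ 2 / (p0 (W i) + p1 (W i)) * ‖h i‖ ^ 2
      ≤ κ * ∑ i, Gf (W i) (B i) * ‖h i‖ ^ 2 := by
    rw [← Finset.sum_add_distrib, ← Finset.sum_add_distrib, ← Finset.sum_add_distrib,
      Finset.mul_sum, Finset.mul_sum, Finset.mul_sum, ← Finset.sum_add_distrib,
      ← Finset.sum_add_distrib]
    refine Finset.sum_le_sum fun i _ => ?_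
    rw [nm, np, ne]
    have hP := p0_pos (W i)
    have hQ := p1_pos (W i)
    have hx : Gf (W i) (B i) ^ 2 / (p0 (W i) + p1 (W i))
        ≤ p0 (W i) * (1 / 2 - s i) ^ 2 + p1 (W i) * (1 / 2 + s i) ^ 2 := by
      rw [div_le_iff₀ (by positivity), Gf_cur]
      have := mul_nonneg (mul_nonneg hP.le hQ.le) (sq_nonneg ((1 / 2 - s i) - (1 / 2 + s i)))
      simp only [hs] at this ⊢
      nlinarith [this]
    have hh : 0 ≤ ‖h i‖ ^ 2 := by positivity
    have := mul_le_mul_of_nonneg_right (mul_le_mul_of_nonneg_left hx (sub_nonneg.2 hκ)) hh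
    have hG := Gf_eq (W i) (B i)
    have hG2 : κ * (Gf (W i) (B i) * ‖h i‖ ^ 2)
        = κ * (((p0 (W i) + p0 (B i)) * (1 / 2 - sf (W i) (B i)) ^ 2
          + (p1 (W i) + p1 (B i)) * (1 / 2 + sf (W i) (B i)) ^ 2
          + 4 * cf (W i) (B i) * sf (W i) (B i) ^ 2) * ‖h i‖ ^ 2) := by rw [← hG]
    rw [hG2]
    simp only [hs] at this ⊢
    nlinarith [this]
  rw [b2] at b1
  linarith

end

end Vale.Agent.P369.H395
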