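import Vale.Agent.P369.H395.OIx
import Vale.Agent.P369.H712.LogMean

/-!
P369 (helper395): the weights `J p₀(w)`, `J p₁(w)`, `J G(w,b)` in terms of eigenvalues.
-/

namespace Vale.Agent.P369.H395

open Vale.Agent.P369.H255
open Vale.Agent.P369.H712 (lm lm_symm lm_self lm_of_ne lm_zero lm_pos lm_nonneg)
open scoped BigOperators Matrix

noncomputable section

theorem lm_p0 {x y : ℝ} (hx : 0 < x) (hy : 0 < y) :
    lm x y * p0 (Real.log x - Real.log y) = y := by
  by_cases h : x = y
  · subst h
    rw [lm_self hx, sub_self, p0_zero, mul_one]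
  · have h2 : Real.log x - Real.log y ≠ 0 := by
      intro h3
      exact h (Real.log_injOn_pos hx hy (sub_eq_zero.1 h3))
    have h3 : Real.exp (Real.log x - Real.log y) = x / y := by
      rw [Real.exp_sub, Real.exp_log hx, Real.exp_log hy]
    have h4 : x - y ≠ 0 := sub_ne_zero.2 h
    rw [lm_of_ne hx hy h, p0_of_ne h2, h3]
    have h5 : x / y - 1 ≠ 0 := by
      rw [div_sub_one hy.ne']
      exact div_ne_zero h4 hy.ne'
    field_simp

theorem lm_p1 {x y : ℝ} (hx : 0 < x) (hy : 0 < y) :
    lm x y * p1 (Real.log x - Real.log y) = x := by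
  have h := lm_p0 hy hx
  rw [lm_symm, ← p0_neg, neg_sub]
  exact h

theorem cf_self {b : ℝ} (hb : 0 < b) : cf b b = Ff b * (qf b - 1) / (qf b - Ff b) := by
  have hF1 : Ff b < 1 := by
    have := strictAntiOn_Ff (Set.mem_Ici.2 le_rfl) (Set.mem_Ici.2 hb.le) hb
    rwa [Ff_zero] at this
  have hF0 := Ff_pos b
  have hq := qf_gt_one hb
  have h1 : ∀ m : ℝ, m * Ff b + (1 - m) * Ff b = Ff b := fun m => by ring
  rw [cf, rod]
  simp only [h1]
  rw [intervalIntegral.integral_const, sub_zero, one_smul, rho_one, gam_of_ne hF1.ne, Qx_Ff]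
  have h2 : qf b - 1 ≠ 0 := by linarith
  have h3 : 1 - Ff b ≠ 0 := by linarith
  have h4 : qf b - Ff b ≠ 0 := by linarith
  rw [inv_div]
  have h5 : 1 + ((qf b - 1) / (1 - Ff b))⁻¹ = (qf b - Ff b) / (qf b - 1) := by
    rw [inv_div]
    field_simp
    ring
  rw [h5, div_div_eq_mul_div]

theorem Gf_self {b : ℝ} (hb : 0 < b) : Gf b b = Ff b := by
  have hF1 : Ff b < 1 := by
    have := strictAntiOn_Ff (Set.mem_Ici.2 le_rfl) (Set.mem_Ici.2 hb.le) hb
    rwa [Ff_zero] at this
  have hF0 := Ff_pos b
  have hq := qf_gt_one hb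
  have h4 : 0 < qf b - Ff b := by linarith
  have h2 := qf_sq_sub b
  have hb2 : b ^ 2 = 4 * (qf b ^ 2 - Ff b) := by linarith
  have hc := cf_pos b b
  rw [Gf, cf_self hb] at *
  have h6 : (b + b) ^ 2 = 16 * (qf b ^ 2 - Ff b) := by
    have : (b + b) ^ 2 = 4 * b ^ 2 := by ring
    rw [this, hb2]; ring
  rw [h6]
  have h7 : qf b + qf b + 2 * (Ff b * (qf b - 1) / (qf b - Ff b))
      = 2 * (qf b ^ 2 - Ff b) / (qf b - Ff b) := by
    field_simp
    ring
  have h8 : 0 < qf b ^ 2 - Ff b := by nlinarith
  rw [h7]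
  field_simp
  ring

/-- `J G(w, b)` as a weighted logarithmic mean. -/
theorem lm_Gf {x y N : ℝ} (hx : 0 < x) (hy : 0 < y) (hN : 0 < N) :
    lm x y * Gf (Real.log x - Real.log y) (Real.log (1 + 1 / N))
      = Real.log (1 + 1 / N) * lm (N * x) ((N + 1) * y) := by
  have hN1 : (0 : ℝ) < N + 1 := by linarith
  have hb : Real.log (1 + 1 / N) = Real.log (N + 1) - Real.log N := by
    rw [← Real.log_div hN1.ne' hN.ne']
    congr 1
    field_simp
  have hb0 : 0 < Real.log (1 + 1 / N) := Real.log_pos (by
    have : 0 < 1 / N := by positivity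
    linarith)
  have hexp : Real.exp (Real.log (1 + 1 / N)) = 1 + 1 / N := Real.exp_log (by positivity)
  have hp0b : p0 (Real.log (1 + 1 / N)) = Real.log (1 + 1 / N) * N := by
    rw [p0_of_ne hb0.ne', hexp]
    field_simp
    ring
  have hp1b : p1 (Real.log (1 + 1 / N)) = Real.log (1 + 1 / N) * (N + 1) := by
    rw [p1, hp0b]; ring
  have hlx : Real.log (N * x) = Real.log N + Real.log x := Real.log_mul hN.ne' hx.ne'
  have hly : Real.log ((N + 1) * y) = Real.log (N + 1) + Real.log y :=
    Real.log_mul hN1.ne' hy.ne'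
  set b := Real.log (1 + 1 / N) with hbdef
  by_cases h : N * x = (N + 1) * y
  · have hw : Real.log x - Real.log y = b := by
      have := congrArg Real.log h
      rw [hlx, hly] at this
      linarith
    have h1 := lm_p1 hx hy
    rw [hw] at h1 ⊢
    rw [Gf_self hb0, ← h, lm_self (by positivity), Ff, hp0b]
    calc lm x y * (b * N * p1 b) = b * N * (lm x y * p1 b) := by ring
      _ = b * (N * x) := by rw [h1]; ring
  · have hw : b - (Real.log x - Real.log y) ≠ 0 := by
      intro h0
      apply h
      apply Real.log_injOn_pos (Set.mem_Ioi.2 (by positivity)) (Set.mem_Ioi.2 (by positivity))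
      rw [hlx, hly]
      linarith
    have h1 := lm_p0 hx hy
    have h2 := lm_p1 hx hy
    have h3 := Gf_mul (Real.log x - Real.log y) b
    have h4 := p1_sub_p0 (Real.log x - Real.log y)
    rw [lm_of_ne (by positivity) (by positivity) h, hlx, hly]
    have e : Real.log N + Real.log x - (Real.log (N + 1) + Real.log y)
        = -(b - (Real.log x - Real.log y)) := by rw [hb]; ring
    have key : lm x y * Gf (Real.log x - Real.log y) b * (b - (Real.log x - Real.log y))
        = b * ((N + 1) * y - N * x) := by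
      have h5 : lm x y * (Real.log x - Real.log y) = x - y := by
        rw [← h4, mul_sub, h1, h2]
      calc lm x y * Gf (Real.log x - Real.log y) b * (b - (Real.log x - Real.log y))
          = lm x y * (Gf (Real.log x - Real.log y) b * (b - (Real.log x - Real.log y))) := by ring
        _ = b * (lm x y * p0 (Real.log x - Real.log y))
            - (lm x y * (Real.log x - Real.log y)) * p0 b := by rw [h3]; ring
        _ = b * ((N + 1) * y - N * x) := by rw [h1, h5, hp0b]; ring
    rw [e, div_neg, mul_neg, mul_div_assoc', ← neg_div, eq_div_iff hw, key]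
    ring

end

end Vale.Agent.P369.H395
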